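import Vale.Agent.P064.Union

/-!
# P064: numerical estimates
-/

namespace Vale.Agent.P064

open Finset Nat

theorem inv_factorial_le (j : ℕ) (hj : 1 ≤ j) : (1 : ℝ) / (j ! : ℝ) ≤ (3 / (j : ℝ)) ^ j := by
  have hj0 : (0 : ℝ) < j := by exact_mod_cast hj
  have h1 := Real.pow_div_factorial_le_exp (x := (j : ℝ)) hj0.le j
  have h2 : Real.exp (j : ℝ) ≤ 3 ^ j := by
    have h3 : Real.exp (j : ℝ) = Real.exp 1 ^ j := by
      rw [← Real.exp_nat_mul, mul_one]
    rw [h3]
    have h4 : Real.exp 1 ≤ 3 := by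
      have := Real.exp_one_lt_d9
      linarith
    exact pow_le_pow_left₀ (Real.exp_pos 1).le h4 j
  have hf : (0 : ℝ) < (j ! : ℝ) := by exact_mod_cast Nat.factorial_pos j
  have hp : (0 : ℝ) < (j : ℝ) ^ j := pow_pos hj0 j
  rw [div_pow, div_le_div_iff₀ hf hp, one_mul]
  have h5 := h1.trans h2
  rw [div_le_iff₀ hf] at h5
  exact h5

theorem choose_le_three (N j : ℕ) (hj : 1 ≤ j) :
    (N.choose j : ℝ) ≤ (3 * (N : ℝ) / (j : ℝ)) ^ j := by
  have h1 : (N.choose j : ℝ) ≤ (N : ℝ) ^ j / (j ! : ℝ) := Nat.choose_le_pow_div j N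
  have h2 := inv_factorial_le j hj
  have h3 : (0 : ℝ) ≤ (N : ℝ) ^ j := by positivity
  calc (N.choose j : ℝ) ≤ (N : ℝ) ^ j * (1 / (j ! : ℝ)) := by rw [mul_one_div]; exact h1
    _ ≤ (N : ℝ) ^ j * (3 / (j : ℝ)) ^ j := mul_le_mul_of_nonneg_left h2 h3
    _ = (3 * (N : ℝ) / (j : ℝ)) ^ j := by rw [← mul_pow]; congr 1; ring

/-- the key consequence of the first moment hypothesis -/
theorem key_bound (n j m : ℕ) (q : ℝ) (hj : 1 ≤ j) (hm : 1 ≤ m) (hq : 0 ≤ q)
    (h : 1 ≤ ((n * n.choose m).choose j : ℝ) * q ^ (j * m)) :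
    (j : ℝ) ≤ 3 * n * (3 * n * q / m) ^ m := by
  have hj0 : (0 : ℝ) < j := by exact_mod_cast hj
  have hm0 : (0 : ℝ) < m := by exact_mod_cast hm
  have h1 := choose_le_three (n * n.choose m) j hj
  have h2 := choose_le_three n m hm
  set b : ℝ := 3 * n / j * (3 * n * q / m) ^ m with hb
  have hb0 : 0 ≤ b := by positivity
  have h3 : ((n * n.choose m).choose j : ℝ) * q ^ (j * m) ≤ b ^ j := by
    have h4 : (3 * ((n * n.choose m : ℕ) : ℝ) / (j : ℝ)) ≤ 3 * n / j * (3 * n / m) ^ m := by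
      push_cast
      have : 3 * ((n : ℝ) * (n.choose m : ℝ)) / j = 3 * n / j * (n.choose m : ℝ) := by ring
      rw [this]
      exact mul_le_mul_of_nonneg_left h2 (by positivity)
    have h5 : ((n * n.choose m).choose j : ℝ) ≤ (3 * n / j * (3 * n / m) ^ m) ^ j :=
      h1.trans (pow_le_pow_left₀ (by positivity) h4 j)
    calc ((n * n.choose m).choose j : ℝ) * q ^ (j * m)
        ≤ (3 * n / j * (3 * n / m) ^ m) ^ j * q ^ (j * m) :=
          mul_le_mul_of_nonneg_right h5 (by positivity)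
      _ = b ^ j := by
          rw [hb, mul_comm j m, pow_mul, ← mul_pow]
          congr 1
          rw [mul_assoc, ← mul_pow]
          congr 2
          ring
  have h6 : 1 ≤ b := by
    by_contra hcon
    rw [not_le] at hcon
    have := pow_lt_one₀ hb0 hcon (by omega : j ≠ 0)
    linarith [h.trans h3]
  rw [hb, div_mul_eq_mul_div, le_div_iff₀ hj0, one_mul] at h6
  exact h6

theorem descFactorial_ratio (d N t : ℕ) (h : d ≤ N) :
    d.descFactorial t * N ^ t ≤ N.descFactorial t * d ^ t := by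
  induction t with
  | zero => simp
  | succ t ih =>
    rw [Nat.descFactorial_succ, Nat.descFactorial_succ, pow_succ, pow_succ]
    have h1 : (d - t) * N ≤ (N - t) * d := by
      by_cases htd : t ≤ d
      · obtain ⟨a, rfl⟩ := Nat.exists_eq_add_of_le htd
        obtain ⟨b, rfl⟩ := Nat.exists_eq_add_of_le h
        have e1 : t + a - t = a := by omega
        have e2 : t + a + b - t = a + b := by omega
        rw [e1, e2]
        nlinarith
      · have : d - t = 0 := by omega
        rw [this]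
        simp
    calc (d - t) * d.descFactorial t * (N ^ t * N)
        = ((d - t) * N) * (d.descFactorial t * N ^ t) := by ring
      _ ≤ ((N - t) * d) * (N.descFactorial t * d ^ t) := Nat.mul_le_mul h1 ih
      _ = (N - t) * N.descFactorial t * (d ^ t * d) := by ring

theorem choose_ratio (d N t : ℕ) (h : d ≤ N) :
    d.choose t * N ^ t ≤ N.choose t * d ^ t := by
  have h1 := descFactorial_ratio d N t h
  rw [Nat.descFactorial_eq_factorial_mul_choose, Nat.descFactorial_eq_factorial_mul_choose,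
    mul_assoc, mul_assoc] at h1
  exact Nat.le_of_mul_le_mul_left h1 (Nat.factorial_pos t)

theorem geo_sum (t K : ℕ) :
    ∑ k ∈ range K, ((1 : ℝ) + ((t : ℝ) + k)) * (1 / 2) ^ k + 2 * ((t : ℝ) + K + 2) * (1 / 2) ^ K
      = 2 * ((t : ℝ) + 2) := by
  induction K with
  | zero => simp
  | succ K ih =>
    rw [Finset.sum_range_succ, ← ih]
    push_cast
    rw [pow_succ]
    ring

theorem geo_sum_le (t : ℕ) (M : Finset ℕ) (hM : ∀ m ∈ M, t ≤ m) :
    ∑ m ∈ M, ((1 : ℝ) + m) * (1 / 2) ^ (m - t) ≤ 2 * t + 4 := by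
  set K := M.sup id + 1 with hK
  have hsub : M ⊆ Ico t (t + K) := by
    intro m hm
    rw [Finset.mem_Ico]
    refine ⟨hM m hm, ?_⟩
    have : m ≤ M.sup id := Finset.le_sup (f := id) hm
    omega
  calc ∑ m ∈ M, ((1 : ℝ) + m) * (1 / 2) ^ (m - t)
      ≤ ∑ m ∈ Ico t (t + K), ((1 : ℝ) + m) * (1 / 2) ^ (m - t) :=
        Finset.sum_le_sum_of_subset_of_nonneg hsub (fun m _ _ => by positivity)
    _ = ∑ k ∈ range K, ((1 : ℝ) + ((t : ℝ) + k)) * (1 / 2) ^ k := by
        rw [Finset.sum_Ico_eq_sum_range]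
        have : t + K - t = K := by omega
        rw [this]
        refine Finset.sum_congr rfl fun k _ => ?_
        have : t + k - t = k := by omega
        rw [this]
        push_cast
        ring
    _ ≤ 2 * t + 4 := by
        have h1 := geo_sum t K
        have h2 : (0 : ℝ) ≤ 2 * ((t : ℝ) + K + 2) * (1 / 2) ^ K := by positivity
        linarith

theorem two_t_add_four_le (t : ℕ) (ht : 1 ≤ t) : (2 * (t : ℝ) + 4) ≤ 3 * 2 ^ t := by
  induction t, ht using Nat.le_induction with
  | base => norm_num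
  | succ t ht ih =>
    push_cast
    rw [pow_succ]
    have : (1 : ℝ) ≤ 2 ^ t := one_le_pow₀ (by norm_num)
    linarith

end Vale.Agent.P064
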