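import Mathlib

/-!
# P064: graphs on `Fin n` as edge sets, copies, expected number of copies in `G(n,p)`
-/

namespace Vale.Agent.P064

open Finset

variable {n : ℕ}

/-- the edge set of the complete graph on `Fin n` -/
def allEdges (n : ℕ) : Finset (Sym2 (Fin n)) := univ.filter (fun e => ¬ e.IsDiag)

/-- image of an edge set under a relabelling of the vertices -/
def relabel (σ : Equiv.Perm (Fin n)) (F : Finset (Sym2 (Fin n))) : Finset (Sym2 (Fin n)) :=
  F.image (Sym2.map σ)

open Classical in
/-- the subgraphs (edge subsets) of `G` isomorphic to `F` -/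
noncomputable def copies (G F : Finset (Sym2 (Fin n))) : Finset (Finset (Sym2 (Fin n))) :=
  G.powerset.filter (fun F' => ∃ σ : Equiv.Perm (Fin n), F' = relabel σ F)

/-- `N(G,F)` -/
noncomputable def count (G F : Finset (Sym2 (Fin n))) : ℕ := (copies G F).card

/-- `E N(G(n,p),F)`: every subset `G` of the edge set of `K_n` has probability
`p^{e(G)} (1-p)^{binom n 2 - e(G)}` -/
noncomputable def expCount (n : ℕ) (p : ℝ) (F : Finset (Sym2 (Fin n))) : ℝ :=
  ∑ G ∈ (allEdges n).powerset,
    p ^ G.card * (1 - p) ^ ((allEdges n).card - G.card) * (count G F : ℝ)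

theorem card_relabel (σ : Equiv.Perm (Fin n)) (F : Finset (Sym2 (Fin n))) :
    (relabel σ F).card = F.card :=
  Finset.card_image_of_injective _ (Sym2.map.injective σ.injective)

theorem mem_copies {G F F' : Finset (Sym2 (Fin n))} :
    F' ∈ copies G F ↔ F' ⊆ G ∧ ∃ σ : Equiv.Perm (Fin n), F' = relabel σ F := by
  classical
  simp [copies]

theorem copies_mono {G G' : Finset (Sym2 (Fin n))} (h : G ⊆ G') (F : Finset (Sym2 (Fin n))) :
    copies G F ⊆ copies G' F := by
  intro F' hF'
  rw [mem_copies] at hF' ⊢
  exact ⟨hF'.1.trans h, hF'.2⟩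

theorem count_mono {G G' : Finset (Sym2 (Fin n))} (h : G ⊆ G') (F : Finset (Sym2 (Fin n))) :
    count G F ≤ count G' F := Finset.card_le_card (copies_mono h F)

/-- probability that a fixed edge set is contained in `G(n,p)` -/
theorem sum_superset {α : Type*} [DecidableEq α] (E F' : Finset α) (h : F' ⊆ E) (p : ℝ) :
    ∑ G ∈ E.powerset, (if F' ⊆ G then p ^ G.card * (1 - p) ^ (E.card - G.card) else 0)
      = p ^ F'.card := by
  rw [← Finset.sum_filter]
  have hset : E.powerset.filter (fun G => F' ⊆ G) = (E \ F').powerset.image (F' ∪ ·) := by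
    rw [← Finset.Icc_eq_image_powerset h]
    ext G
    simp [Finset.mem_Icc, and_comm]
  rw [hset, Finset.sum_image]
  · have hterm : ∀ S ∈ (E \ F').powerset,
        p ^ (F' ∪ S).card * (1 - p) ^ (E.card - (F' ∪ S).card)
          = p ^ F'.card * (p ^ S.card * (1 - p) ^ ((E \ F').card - S.card)) := by
      intro S hS
      have hS' : S ⊆ E \ F' := Finset.mem_powerset.1 hS
      have hdisj : Disjoint F' S :=
        Finset.disjoint_of_subset_right hS' Finset.disjoint_sdiff
      rw [Finset.card_union_of_disjoint hdisj, Finset.card_sdiff_of_subset h, pow_add]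
      have : E.card - (F'.card + S.card) = E.card - F'.card - S.card := by omega
      rw [this]
      ring
    rw [Finset.sum_congr rfl hterm, ← Finset.mul_sum, Finset.sum_pow_mul_eq_add_pow]
    simp
  · intro S hS T hT hST
    have hS' : S ⊆ E \ F' := Finset.mem_powerset.1 hS
    have hT' : T ⊆ E \ F' := Finset.mem_powerset.1 hT
    have hdS : Disjoint F' S := Finset.disjoint_of_subset_right hS' Finset.disjoint_sdiff
    have hdT : Disjoint F' T := Finset.disjoint_of_subset_right hT' Finset.disjoint_sdiff
    have h1 : (F' ∪ S) \ F' = S := by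
      rw [Finset.union_sdiff_cancel_left hdS]
    have h2 : (F' ∪ T) \ F' = T := by
      rw [Finset.union_sdiff_cancel_left hdT]
    have hST' : F' ∪ S = F' ∪ T := hST
    rw [← h1, ← h2, hST']

/-- `E N(G(n,p),F) = N(K_n,F) p^{e(F)}` -/
theorem expCount_eq (p : ℝ) (F : Finset (Sym2 (Fin n))) :
    expCount n p F = (count (allEdges n) F : ℝ) * p ^ F.card := by
  classical
  unfold expCount
  have hcount : ∀ G ∈ (allEdges n).powerset,
      (count G F : ℝ) = ∑ F' ∈ copies (allEdges n) F, (if F' ⊆ G then (1 : ℝ) else 0) := by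
    intro G hG
    have hG' : G ⊆ allEdges n := Finset.mem_powerset.1 hG
    have : copies G F = (copies (allEdges n) F).filter (fun F' => F' ⊆ G) := by
      ext F'
      rw [Finset.mem_filter, mem_copies, mem_copies]
      constructor
      · rintro ⟨h1, h2⟩
        exact ⟨⟨h1.trans hG', h2⟩, h1⟩
      · rintro ⟨⟨_, h2⟩, h1⟩
        exact ⟨h1, h2⟩
    rw [count, this, Finset.card_filter]
    push_cast
    rfl
  have h1 : ∀ G ∈ (allEdges n).powerset,
      p ^ G.card * (1 - p) ^ ((allEdges n).card - G.card) * (count G F : ℝ)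
        = ∑ F' ∈ copies (allEdges n) F,
          (if F' ⊆ G then p ^ G.card * (1 - p) ^ ((allEdges n).card - G.card) else 0) := by
    intro G hG
    rw [hcount G hG, Finset.mul_sum]
    refine Finset.sum_congr rfl fun F' _ => ?_
    split_ifs <;> simp
  rw [Finset.sum_congr rfl h1, Finset.sum_comm]
  have h2 : ∀ F' ∈ copies (allEdges n) F,
      ∑ G ∈ (allEdges n).powerset,
        (if F' ⊆ G then p ^ G.card * (1 - p) ^ ((allEdges n).card - G.card) else 0)
        = p ^ F.card := by
    intro F' hF'
    obtain ⟨hsub, σ, rfl⟩ := mem_copies.1 hF'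
    rw [sum_superset _ _ hsub, card_relabel]
  rw [Finset.sum_congr rfl h2, Finset.sum_const, nsmul_eq_mul]
  rfl

end Vale.Agent.P064
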