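import Vale.Agent.P064.Analytic

/-!
# P064: stars, universal constant
-/

namespace Vale.Agent.P064

open Finset

variable {n : ℕ}

theorem deg_le {H : Finset (Sym2 (Fin n))} (hH : H ⊆ allEdges n) (v : Fin n) :
    deg H v ≤ n - 1 := by
  have hsub : nbr H v ⊆ univ.erase v := by
    intro w hw
    rw [Finset.mem_erase]
    refine ⟨?_, Finset.mem_univ _⟩
    rintro rfl
    have := hH (mem_nbr.1 hw)
    simp [allEdges] at this
  calc deg H v ≤ (univ.erase v).card := Finset.card_le_card hsub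
    _ = n - 1 := by
        rw [Finset.card_erase_of_mem (Finset.mem_univ _), Finset.card_univ, Fintype.card_fin]

theorem class_bound {H : Finset (Sym2 (Fin n))} {q : ℝ} (hq : 0 ≤ q)
    (hyp : ∀ F' ⊆ H, 1 ≤ expCount n q F') (m : ℕ) (hm : 1 ≤ m) :
    ((univ.filter (fun v => deg H v = m)).card : ℝ)
      ≤ (1 + (m : ℝ)) * (3 * n * (3 * n * q / m) ^ m) := by
  obtain ⟨S, hSC, hind, hcard⟩ := exists_indep (H := H)
    (C := univ.filter (fun v => deg H v = m)) (m := m)
    (fun c hc => (Finset.mem_filter.1 hc).2)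
  have hdeg : ∀ c ∈ S, deg H c = m := fun c hc => (Finset.mem_filter.1 (hSC hc)).2
  have hcard' : ((univ.filter (fun v => deg H v = m)).card : ℝ) ≤ (1 + (m : ℝ)) * S.card := by
    exact_mod_cast hcard
  have hm0 : (0 : ℝ) ≤ 1 + (m : ℝ) := by positivity
  refine hcard'.trans (mul_le_mul_of_nonneg_left ?_ hm0)
  by_cases hj : S.card = 0
  · rw [hj]
    simp only [Nat.cast_zero]
    positivity
  · have h1 := hyp (starUnion H S) (starUnion_subset H S)
    rw [expCount_eq, card_starUnion hind hdeg] at h1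
    have h2 : (count (allEdges n) (starUnion H S) : ℝ) ≤ ((n * n.choose m).choose S.card : ℝ) := by
      exact_mod_cast count_starUnion_le hdeg
    have h3 : 1 ≤ ((n * n.choose m).choose S.card : ℝ) * q ^ (S.card * m) :=
      h1.trans (mul_le_mul_of_nonneg_right h2 (by positivity))
    exact key_bound n S.card m q (by omega) hm hq h3

theorem sum_big {H : Finset (Sym2 (Fin n))} {q : ℝ} (hn : 2 ≤ n) (hq : 0 ≤ q)
    (hyp : ∀ F' ⊆ H, 1 ≤ expCount n q F') (t : ℕ) (ht : 1 ≤ t) (B : Finset (Fin n))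
    (hB : ∀ v ∈ B, t ≤ deg H v ∧ 6 * (n : ℝ) * q < (deg H v : ℝ)) :
    ∑ v ∈ B, (2 * (deg H v : ℝ) / n) ^ t ≤ 9 * n * (12 * q) ^ t := by
  have hn0 : (0 : ℝ) < n := by
    have : 0 < n := by omega
    exact_mod_cast this
  have h1 := Finset.sum_comp (s := B) (fun m : ℕ => (2 * (m : ℝ) / n) ^ t) (deg H)
  rw [h1]
  have hterm : ∀ m ∈ B.image (deg H),
      (B.filter (fun v => deg H v = m)).card • (2 * (m : ℝ) / n) ^ t
        ≤ 3 * n * (6 * q) ^ t * (((1 : ℝ) + m) * (1 / 2) ^ (m - t)) := by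
    intro m hm
    obtain ⟨v, hv, rfl⟩ := Finset.mem_image.1 hm
    obtain ⟨htm, hbig⟩ := hB v hv
    set m := deg H v with hmdef
    have hm1 : 1 ≤ m := ht.trans htm
    have hm0 : (0 : ℝ) < m := by exact_mod_cast hm1
    have hc1 : ((B.filter (fun w => deg H w = m)).card : ℝ)
        ≤ ((univ.filter (fun w => deg H w = m)).card : ℝ) := by
      have : (B.filter (fun w => deg H w = m)).card ≤ (univ.filter (fun w => deg H w = m)).card :=
        Finset.card_le_card (Finset.filter_subset_filter _ (Finset.subset_univ _))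
      exact_mod_cast this
    have hc2 := class_bound hq hyp m hm1
    set x : ℝ := 3 * n * q / m with hx
    have hx0 : 0 ≤ x := by positivity
    have hx2 : x ≤ 1 / 2 := by
      rw [hx, div_le_iff₀ hm0]
      linarith
    have hsplit : x ^ m * (2 * (m : ℝ) / n) ^ t = x ^ (m - t) * (6 * q) ^ t := by
      have e1 : x ^ m = x ^ (m - t) * x ^ t := by
        rw [← pow_add]
        congr 1
        omega
      rw [e1, mul_assoc, ← mul_pow]
      congr 2
      rw [hx]
      field_simp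
      ring
    have hpow : x ^ (m - t) ≤ (1 / 2) ^ (m - t) := pow_le_pow_left₀ hx0 hx2 _
    have hnn : (0 : ℝ) ≤ (2 * (m : ℝ) / n) ^ t := by positivity
    rw [nsmul_eq_mul]
    calc ((B.filter (fun w => deg H w = m)).card : ℝ) * (2 * (m : ℝ) / n) ^ t
        ≤ ((1 + (m : ℝ)) * (3 * n * x ^ m)) * (2 * (m : ℝ) / n) ^ t :=
          mul_le_mul_of_nonneg_right (hc1.trans hc2) hnn
      _ = (1 + (m : ℝ)) * (3 * n) * (x ^ m * (2 * (m : ℝ) / n) ^ t) := by ring
      _ = (1 + (m : ℝ)) * (3 * n) * (x ^ (m - t) * (6 * q) ^ t) := by rw [hsplit]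
      _ ≤ (1 + (m : ℝ)) * (3 * n) * ((1 / 2) ^ (m - t) * (6 * q) ^ t) := by
          refine mul_le_mul_of_nonneg_left ?_ (by positivity)
          exact mul_le_mul_of_nonneg_right hpow (by positivity)
      _ = 3 * n * (6 * q) ^ t * (((1 : ℝ) + m) * (1 / 2) ^ (m - t)) := by ring
  have hM : ∀ m ∈ B.image (deg H), t ≤ m := by
    intro m hm
    obtain ⟨v, hv, rfl⟩ := Finset.mem_image.1 hm
    exact (hB v hv).1
  calc ∑ m ∈ B.image (deg H), (B.filter (fun v => deg H v = m)).card • (2 * (m : ℝ) / n) ^ t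
      ≤ ∑ m ∈ B.image (deg H), 3 * n * (6 * q) ^ t * (((1 : ℝ) + m) * (1 / 2) ^ (m - t)) :=
        Finset.sum_le_sum hterm
    _ = 3 * n * (6 * q) ^ t * ∑ m ∈ B.image (deg H), ((1 : ℝ) + m) * (1 / 2) ^ (m - t) := by
        rw [Finset.mul_sum]
    _ ≤ 3 * n * (6 * q) ^ t * (3 * 2 ^ t) := by
        refine mul_le_mul_of_nonneg_left ?_ (by positivity)
        exact (geo_sum_le t _ hM).trans (two_t_add_four_le t ht)
    _ = 9 * n * (12 * q) ^ t := by
        have : (12 * q) ^ t = (6 * q) ^ t * 2 ^ t := by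
          rw [← mul_pow]
          congr 1
          ring
        rw [this]
        ring

theorem sum_all {H : Finset (Sym2 (Fin n))} {q : ℝ} (hn : 2 ≤ n) (hq : 0 ≤ q)
    (hyp : ∀ F' ⊆ H, 1 ≤ expCount n q F') (t : ℕ) (ht : 1 ≤ t) :
    ∑ v ∈ univ.filter (fun v => t ≤ deg H v), (2 * (deg H v : ℝ) / n) ^ t
      ≤ 10 * n * (12 * q) ^ t := by
  classical
  have hn0 : (0 : ℝ) < n := by
    have : 0 < n := by omega
    exact_mod_cast this
  set V := univ.filter (fun v => t ≤ deg H v) with hV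
  rw [← Finset.sum_filter_add_sum_filter_not V (fun v => (deg H v : ℝ) ≤ 6 * (n : ℝ) * q)]
  have hsmall : ∑ v ∈ V.filter (fun v => (deg H v : ℝ) ≤ 6 * (n : ℝ) * q),
      (2 * (deg H v : ℝ) / n) ^ t ≤ n * (12 * q) ^ t := by
    calc ∑ v ∈ V.filter (fun v => (deg H v : ℝ) ≤ 6 * (n : ℝ) * q), (2 * (deg H v : ℝ) / n) ^ t
        ≤ ∑ _v ∈ V.filter (fun v => (deg H v : ℝ) ≤ 6 * (n : ℝ) * q), (12 * q) ^ t := by
          refine Finset.sum_le_sum fun v hv => ?_
          have h1 := (Finset.mem_filter.1 hv).2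
          refine pow_le_pow_left₀ (by positivity) ?_ t
          rw [div_le_iff₀ hn0]
          linarith
      _ = ((V.filter (fun v => (deg H v : ℝ) ≤ 6 * (n : ℝ) * q)).card : ℝ) * (12 * q) ^ t := by
          rw [Finset.sum_const, nsmul_eq_mul]
      _ ≤ n * (12 * q) ^ t := by
          refine mul_le_mul_of_nonneg_right ?_ (by positivity)
          have : (V.filter (fun v => (deg H v : ℝ) ≤ 6 * (n : ℝ) * q)).card ≤ n := by
            calc _ ≤ (univ : Finset (Fin n)).card := Finset.card_le_card (Finset.subset_univ _)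
              _ = n := by rw [Finset.card_univ, Fintype.card_fin]
          exact_mod_cast this
  have hbig := sum_big hn hq hyp t ht
    (V.filter (fun v => ¬ (deg H v : ℝ) ≤ 6 * (n : ℝ) * q)) (by
      intro v hv
      obtain ⟨h1, h2⟩ := Finset.mem_filter.1 hv
      exact ⟨(Finset.mem_filter.1 h1).2, not_le.1 h2⟩)
  linarith

theorem sum_choose_le {H : Finset (Sym2 (Fin n))} {q : ℝ} (hn : 2 ≤ n) (hH : H ⊆ allEdges n)
    (hq : 0 ≤ q) (hyp : ∀ F' ⊆ H, 1 ≤ expCount n q F') (t : ℕ) (ht : 1 ≤ t) :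
    ∑ v, ((deg H v).choose t : ℝ) ≤ ((n - 1).choose t : ℝ) * (10 * n * (12 * q) ^ t) := by
  classical
  have hn0 : (0 : ℝ) < n := by
    have : 0 < n := by omega
    exact_mod_cast this
  have hN : (0 : ℝ) < ((n - 1 : ℕ) : ℝ) := by
    have : 0 < n - 1 := by omega
    exact_mod_cast this
  have hNn : (n : ℝ) ≤ 2 * ((n - 1 : ℕ) : ℝ) := by
    have : n ≤ 2 * (n - 1) := by omega
    exact_mod_cast this
  have hpt : ∀ v : Fin n, ((deg H v).choose t : ℝ)
      ≤ ((n - 1).choose t : ℝ) * (if t ≤ deg H v then (2 * (deg H v : ℝ) / n) ^ t else 0) := by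
    intro v
    split_ifs with h
    · have h1 := choose_ratio (deg H v) (n - 1) t (deg_le hH v)
      have h2 : ((deg H v).choose t : ℝ) * ((n - 1 : ℕ) : ℝ) ^ t
          ≤ ((n - 1).choose t : ℝ) * (deg H v : ℝ) ^ t := by exact_mod_cast h1
      have h3 : ((deg H v).choose t : ℝ)
          ≤ ((n - 1).choose t : ℝ) * ((deg H v : ℝ) / ((n - 1 : ℕ) : ℝ)) ^ t := by
        rw [div_pow, ← mul_div_assoc, le_div_iff₀ (pow_pos hN t)]
        exact h2
      refine h3.trans (mul_le_mul_of_nonneg_left ?_ (by positivity))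
      refine pow_le_pow_left₀ (by positivity) ?_ t
      rw [div_le_div_iff₀ hN hn0]
      have hd : (0 : ℝ) ≤ (deg H v : ℝ) := by positivity
      nlinarith
    · rw [Nat.choose_eq_zero_of_lt (not_le.1 h)]
      simp
  calc ∑ v, ((deg H v).choose t : ℝ)
      ≤ ∑ v, ((n - 1).choose t : ℝ) *
          (if t ≤ deg H v then (2 * (deg H v : ℝ) / n) ^ t else 0) :=
        Finset.sum_le_sum fun v _ => hpt v
    _ = ((n - 1).choose t : ℝ) *
          ∑ v ∈ univ.filter (fun v => t ≤ deg H v), (2 * (deg H v : ℝ) / n) ^ t := by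
        rw [← Finset.mul_sum, Finset.sum_filter]
    _ ≤ ((n - 1).choose t : ℝ) * (10 * n * (12 * q) ^ t) :=
        mul_le_mul_of_nonneg_left (sum_all hn hq hyp t ht) (by positivity)

/-- **Stars with a universal constant.** -/
theorem stars_universal (n : ℕ) (H : Finset (Sym2 (Fin n))) (q : ℝ) (hn : 2 ≤ n)
    (hH : H ⊆ allEdges n) (hq : 0 ≤ q)
    (hyp : ∀ F' ⊆ H, 1 ≤ expCount n q F')
    (c : Fin n) (A : Finset (Fin n)) (hc : c ∉ A) (hA : A.Nonempty) :
    (count H (starGraph c A) : ℝ) ≤ expCount n (min 1 (240 * q)) (starGraph c A) := by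
  rw [expCount_eq, card_star]
  set t := A.card with ht
  have ht1 : 1 ≤ t := Finset.card_pos.2 hA
  by_cases hL : 1 ≤ 240 * q
  · rw [min_eq_left hL, one_pow, mul_one]
    exact_mod_cast count_mono hH _
  · rw [min_eq_right (not_le.1 hL).le]
    have h1 : (count H (starGraph c A) : ℝ) ≤ ∑ v, ((deg H v).choose t : ℝ) := by
      exact_mod_cast count_star_le H c A
    have h2 := sum_choose_le hn hH hq hyp t ht1
    have h3 : ((n * (n - 1).choose t : ℕ) : ℝ)
        ≤ ((2 * count (allEdges n) (starGraph c A) : ℕ) : ℝ) := by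
      exact_mod_cast count_star_ge hc hA
    push_cast at h3
    have h4 : 20 * (12 * q) ^ t ≤ (240 * q) ^ t := by
      have e : (240 * q) ^ t = 20 ^ t * (12 * q) ^ t := by
        rw [← mul_pow]
        congr 1
        ring
      rw [e]
      refine mul_le_mul_of_nonneg_right ?_ (by positivity)
      calc (20 : ℝ) = 20 ^ 1 := by norm_num
        _ ≤ 20 ^ t := pow_le_pow_right₀ (by norm_num) ht1
    have h5 : (0 : ℝ) ≤ (12 * q) ^ t := by positivity
    have h6 : (0 : ℝ) ≤ (n : ℝ) * ((n - 1).choose t : ℝ) := by positivity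
    calc (count H (starGraph c A) : ℝ)
        ≤ ((n - 1).choose t : ℝ) * (10 * n * (12 * q) ^ t) := h1.trans h2
      _ = ((n : ℝ) * ((n - 1).choose t : ℝ)) * (10 * (12 * q) ^ t) := by ring
      _ ≤ (2 * (count (allEdges n) (starGraph c A) : ℝ)) * (10 * (12 * q) ^ t) :=
          mul_le_mul_of_nonneg_right h3 (by positivity)
      _ = (count (allEdges n) (starGraph c A) : ℝ) * (20 * (12 * q) ^ t) := by ring
      _ ≤ (count (allEdges n) (starGraph c A) : ℝ) * (240 * q) ^ t :=
          mul_le_mul_of_nonneg_left h4 (by positivity)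

end Vale.Agent.P064
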