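import Vale.Agent.P064.Basic

/-!
# P064: counting stars
-/

namespace Vale.Agent.P064

open Finset

variable {n : ℕ}

/-- the star with centre `c` and leaf set `A` -/
def starGraph (c : Fin n) (A : Finset (Fin n)) : Finset (Sym2 (Fin n)) :=
  A.image (fun a => s(c, a))

/-- neighbourhood of `v` in the graph with edge set `H` -/
def nbr (H : Finset (Sym2 (Fin n))) (v : Fin n) : Finset (Fin n) :=
  univ.filter (fun w => s(v, w) ∈ H)

/-- degree of `v` -/
def deg (H : Finset (Sym2 (Fin n))) (v : Fin n) : ℕ := (nbr H v).card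

theorem mem_nbr {H : Finset (Sym2 (Fin n))} {v w : Fin n} : w ∈ nbr H v ↔ s(v, w) ∈ H := by
  simp [nbr]

theorem mem_star {c : Fin n} {A : Finset (Fin n)} {e : Sym2 (Fin n)} :
    e ∈ starGraph c A ↔ ∃ a ∈ A, s(c, a) = e := by
  simp [starGraph]

theorem star_inj (c : Fin n) : Function.Injective (fun a : Fin n => s(c, a)) := by
  intro a b h
  exact Sym2.congr_right.1 h

theorem card_star (c : Fin n) (A : Finset (Fin n)) : (starGraph c A).card = A.card :=
  Finset.card_image_of_injective _ (star_inj c)

theorem relabel_star (σ : Equiv.Perm (Fin n)) (c : Fin n) (A : Finset (Fin n)) :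
    relabel σ (starGraph c A) = starGraph (σ c) (A.image σ) := by
  unfold relabel starGraph
  rw [Finset.image_image, Finset.image_image]
  rfl

theorem star_subset_iff {H : Finset (Sym2 (Fin n))} {c : Fin n} {A : Finset (Fin n)} :
    starGraph c A ⊆ H ↔ A ⊆ nbr H c := by
  constructor
  · intro h a ha
    exact mem_nbr.2 (h (mem_star.2 ⟨a, ha, rfl⟩))
  · intro h e he
    obtain ⟨a, ha, rfl⟩ := mem_star.1 he
    exact mem_nbr.1 (h ha)

theorem star_subset_allEdges {v : Fin n} {B : Finset (Fin n)} (hv : v ∉ B) :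
    starGraph v B ⊆ allEdges n := by
  intro e he
  obtain ⟨a, ha, rfl⟩ := mem_star.1 he
  simp only [allEdges, Finset.mem_filter, Finset.mem_univ, true_and, Sym2.mk_isDiag_iff]
  rintro rfl
  exact hv ha

/-- upper bound for the number of stars in `H` -/
theorem count_star_le (H : Finset (Sym2 (Fin n))) (c : Fin n) (A : Finset (Fin n)) :
    count H (starGraph c A) ≤ ∑ v, (deg H v).choose A.card := by
  classical
  have hsub : copies H (starGraph c A) ⊆
      ((univ : Finset (Fin n)).sigma (fun v => powersetCard A.card (nbr H v))).image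
        (fun x => starGraph x.1 x.2) := by
    intro F' hF'
    obtain ⟨hs, σ, rfl⟩ := mem_copies.1 hF'
    rw [relabel_star] at hs ⊢
    refine Finset.mem_image.2 ⟨⟨σ c, A.image σ⟩, ?_, rfl⟩
    rw [Finset.mem_sigma]
    refine ⟨Finset.mem_univ _, Finset.mem_powersetCard.2 ⟨star_subset_iff.1 hs, ?_⟩⟩
    exact Finset.card_image_of_injective _ σ.injective
  calc count H (starGraph c A) ≤ _ := Finset.card_le_card hsub
    _ ≤ ((univ : Finset (Fin n)).sigma (fun v => powersetCard A.card (nbr H v))).card :=
        Finset.card_image_le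
    _ = ∑ v, (deg H v).choose A.card := by
        rw [Finset.card_sigma]
        exact Finset.sum_congr rfl fun v _ => Finset.card_powersetCard _ _

/-- two finsets of the same size are related by a permutation -/
theorem exists_perm_image {α : Type*} [Fintype α] [DecidableEq α] {A B : Finset α}
    (h : A.card = B.card) : ∃ σ : Equiv.Perm α, A.image σ = B := by
  classical
  let e : {x // x ∈ A} ≃ {x // x ∈ B} := Finset.equivOfCardEq h
  refine ⟨e.extendSubtype, ?_⟩
  refine Finset.eq_of_subset_of_card_le ?_ ?_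
  · intro y hy
    obtain ⟨x, hx, rfl⟩ := Finset.mem_image.1 hy
    rw [Equiv.extendSubtype_apply_of_mem e x hx]
    exact (e ⟨x, hx⟩).2
  · rw [Finset.card_image_of_injective _ (Equiv.injective _), h]

theorem exists_perm_star {c v : Fin n} {A B : Finset (Fin n)} (hc : c ∉ A) (hv : v ∉ B)
    (h : A.card = B.card) : ∃ σ : Equiv.Perm (Fin n), σ c = v ∧ A.image σ = B := by
  obtain ⟨ρ, hρ⟩ := exists_perm_image h
  have hu : ρ c ∉ B := by
    rw [← hρ]
    intro hmem
    obtain ⟨x, hx, hxc⟩ := Finset.mem_image.1 hmem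
    exact hc (ρ.injective hxc ▸ hx)
  refine ⟨ρ.trans (Equiv.swap (ρ c) v), by simp, ?_⟩
  rw [← hρ]
  ext y
  simp only [Finset.mem_image, Equiv.trans_apply]
  constructor
  · rintro ⟨x, hx, rfl⟩
    have hxB : ρ x ∈ B := hρ ▸ Finset.mem_image_of_mem _ hx
    refine ⟨x, hx, ?_⟩
    rw [Equiv.swap_apply_of_ne_of_ne]
    · rintro h1; exact hu (h1 ▸ hxB)
    · rintro h1; exact hv (h1 ▸ hxB)
  · rintro ⟨x, hx, rfl⟩
    have hxB : ρ x ∈ B := hρ ▸ Finset.mem_image_of_mem _ hx
    refine ⟨x, hx, ?_⟩
    rw [Equiv.swap_apply_of_ne_of_ne]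
    · rintro h1; exact hu (h1 ▸ hxB)
    · rintro h1; exact hv (h1 ▸ hxB)

/-- if two stars with different centres coincide, they are a single edge -/
theorem star_eq_star {v v' : Fin n} {B B' : Finset (Fin n)} (hne : v ≠ v')
    (h : starGraph v B = starGraph v' B') (hB : B.Nonempty) : B = {v'} ∧ B' = {v} := by
  have h1 : ∀ b ∈ B, b = v' := by
    intro b hb
    have : s(v, b) ∈ starGraph v' B' := h ▸ mem_star.2 ⟨b, hb, rfl⟩
    obtain ⟨b', _, hb'⟩ := mem_star.1 this
    rcases Sym2.eq_iff.1 hb' with ⟨h2, _⟩ | ⟨h2, _⟩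
    · exact absurd h2.symm hne
    · exact h2.symm
  have h2 : ∀ b' ∈ B', b' = v := by
    intro b' hb'
    have : s(v', b') ∈ starGraph v B := h ▸ mem_star.2 ⟨b', hb', rfl⟩
    obtain ⟨b, _, hb⟩ := mem_star.1 this
    rcases Sym2.eq_iff.1 hb with ⟨h3, _⟩ | ⟨h3, _⟩
    · exact absurd h3 hne
    · exact h3.symm
  have hB' : B'.Nonempty := by
    rw [← Finset.card_pos, ← card_star v', ← h, card_star, Finset.card_pos]
    exact hB
  exact ⟨Finset.eq_singleton_iff_nonempty_unique_mem.2 ⟨hB, h1⟩,
    Finset.eq_singleton_iff_nonempty_unique_mem.2 ⟨hB', h2⟩⟩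

/-- lower bound for the number of stars in `K_n` -/
theorem count_star_ge {c : Fin n} {A : Finset (Fin n)} (hc : c ∉ A) (hA : A.Nonempty) :
    n * (n - 1).choose A.card ≤ 2 * count (allEdges n) (starGraph c A) := by
  classical
  set D := (univ : Finset (Fin n)).sigma (fun v => powersetCard A.card (univ.erase v)) with hD
  have hcard : D.card = n * (n - 1).choose A.card := by
    rw [hD, Finset.card_sigma]
    have : ∀ v ∈ (univ : Finset (Fin n)), (powersetCard A.card (univ.erase v)).card
        = (n - 1).choose A.card := by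
      intro v _
      rw [Finset.card_powersetCard, Finset.card_erase_of_mem (Finset.mem_univ _),
        Finset.card_univ, Fintype.card_fin]
    rw [Finset.sum_congr rfl this, Finset.sum_const, Finset.card_univ, Fintype.card_fin,
      smul_eq_mul]
  have hmem : ∀ x ∈ D, x.1 ∉ x.2 ∧ x.2.card = A.card := by
    intro x hx
    rw [hD, Finset.mem_sigma, Finset.mem_powersetCard] at hx
    refine ⟨fun h => ?_, hx.2.2⟩
    exact (Finset.mem_erase.1 (hx.2.1 h)).1 rfl
  have hmaps : ∀ x ∈ D, starGraph x.1 x.2 ∈ copies (allEdges n) (starGraph c A) := by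
    intro x hx
    obtain ⟨h1, h2⟩ := hmem x hx
    obtain ⟨σ, hσ1, hσ2⟩ := exists_perm_star hc h1 h2.symm
    rw [mem_copies]
    exact ⟨star_subset_allEdges h1, σ, by rw [relabel_star, hσ1, hσ2]⟩
  rw [← hcard]
  refine Finset.card_le_mul_card_image_of_maps_to hmaps 2 ?_
  intro F' _
  by_cases hex : ∃ x ∈ D, starGraph x.1 x.2 = F'
  · obtain ⟨x, hx, rfl⟩ := hex
    have hxne : x.2.Nonempty := by
      rw [← Finset.card_pos, (hmem x hx).2, Finset.card_pos]
      exact hA
    -- every other preimage is determined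
    have hother : ∀ y ∈ D, starGraph y.1 y.2 = starGraph x.1 x.2 → y ≠ x →
        x.2 = {y.1} ∧ y.2 = {x.1} := by
      intro y _ hy hne
      have hne1 : x.1 ≠ y.1 := by
        intro h1
        apply hne
        obtain ⟨y1, y2⟩ := y
        obtain ⟨x1, x2⟩ := x
        simp only at h1 hy
        subst h1
        have : y2 = x2 := Finset.image_injective (star_inj x1) hy
        rw [this]
      exact star_eq_star hne1 hy.symm hxne
    by_cases hex2 : ∃ y ∈ D, starGraph y.1 y.2 = starGraph x.1 x.2 ∧ y ≠ x
    · obtain ⟨y, hy, hy1, hy2⟩ := hex2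
      have hsub : D.filter (fun a => starGraph a.1 a.2 = starGraph x.1 x.2) ⊆ {x, y} := by
        intro z hz
        obtain ⟨hz1, hz2⟩ := Finset.mem_filter.1 hz
        by_cases hzx : z = x
        · simp [hzx]
        · obtain ⟨a1, a2⟩ := hother y hy hy1 hy2
          obtain ⟨b1, b2⟩ := hother z hz1 hz2 hzx
          have h3 : z.1 = y.1 := by
            have : ({z.1} : Finset (Fin n)) = {y.1} := b1.symm.trans a1
            exact Finset.singleton_injective this
          have h4 : z = y := by
            obtain ⟨z1, z2⟩ := z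
            obtain ⟨y1, y2⟩ := y
            simp only at h3 a2 b2
            subst h3
            rw [a2, b2]
          simp [h4]
      exact (Finset.card_le_card hsub).trans Finset.card_le_two
    · have hsub : D.filter (fun a => starGraph a.1 a.2 = starGraph x.1 x.2) ⊆ {x} := by
        intro z hz
        obtain ⟨hz1, hz2⟩ := Finset.mem_filter.1 hz
        by_contra hzx
        exact hex2 ⟨z, hz1, hz2, fun h => hzx (by simp [h])⟩
      exact (Finset.card_le_card hsub).trans (by simp)
  · have : D.filter (fun a => starGraph a.1 a.2 = F') = ∅ := by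
      rw [Finset.filter_eq_empty_iff]
      intro x hx h
      exact hex ⟨x, hx, h⟩
    rw [this]
    simp

end Vale.Agent.P064
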