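import Vale.Agent.P064.Stars

/-!
# P064: unions of full stars at independent vertices of equal degree
-/

namespace Vale.Agent.P064

open Finset

variable {n : ℕ}

/-- union of the full stars of `H` at the vertices of `S` -/
def starUnion (H : Finset (Sym2 (Fin n))) (S : Finset (Fin n)) : Finset (Sym2 (Fin n)) :=
  S.biUnion (fun c => starGraph c (nbr H c))

/-- `S` is an independent set of `H` -/
def Indep (H : Finset (Sym2 (Fin n))) (S : Finset (Fin n)) : Prop :=
  ∀ u ∈ S, ∀ v ∈ S, u ≠ v → s(u, v) ∉ H

theorem starUnion_subset (H : Finset (Sym2 (Fin n))) (S : Finset (Fin n)) :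
    starUnion H S ⊆ H := by
  intro e he
  obtain ⟨c, _, hc⟩ := Finset.mem_biUnion.1 he
  exact (star_subset_iff.2 (Finset.Subset.refl _)) hc

theorem card_starUnion {H : Finset (Sym2 (Fin n))} {S : Finset (Fin n)} {m : ℕ}
    (hind : Indep H S) (hdeg : ∀ c ∈ S, deg H c = m) : (starUnion H S).card = S.card * m := by
  unfold starUnion
  rw [Finset.card_biUnion]
  · rw [Finset.sum_congr rfl (fun c hc => (card_star c (nbr H c)).trans (hdeg c hc)),
      Finset.sum_const, smul_eq_mul]
  · intro c hc c' hc' hne
    show Disjoint (starGraph c (nbr H c)) (starGraph c' (nbr H c'))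
    rw [Finset.disjoint_left]
    intro e he he'
    obtain ⟨a, ha, rfl⟩ := mem_star.1 he
    obtain ⟨a', _, h⟩ := mem_star.1 he'
    rcases Sym2.eq_iff.1 h with ⟨h1, _⟩ | ⟨h1, _⟩
    · exact hne h1.symm
    · subst h1
      exact hind c hc c' hc' hne (mem_nbr.1 ha)

theorem count_starUnion_le {H : Finset (Sym2 (Fin n))} {S : Finset (Fin n)} {m : ℕ}
    (hdeg : ∀ c ∈ S, deg H c = m) :
    count (allEdges n) (starUnion H S) ≤ (n * n.choose m).choose S.card := by
  classical
  set U : Finset (Fin n × Finset (Fin n)) := univ ×ˢ powersetCard m univ with hU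
  have hUcard : U.card = n * n.choose m := by
    rw [hU, Finset.card_product, Finset.card_powersetCard, Finset.card_univ, Fintype.card_fin]
  have hsub : copies (allEdges n) (starUnion H S) ⊆
      (powersetCard S.card U).image (fun P => P.biUnion (fun x => starGraph x.1 x.2)) := by
    intro F' hF'
    obtain ⟨_, σ, rfl⟩ := mem_copies.1 hF'
    refine Finset.mem_image.2 ⟨S.image (fun c => (σ c, (nbr H c).image σ)), ?_, ?_⟩
    · rw [Finset.mem_powersetCard]
      constructor
      · intro x hx
        obtain ⟨c, hc, rfl⟩ := Finset.mem_image.1 hx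
        rw [hU, Finset.mem_product]
        refine ⟨Finset.mem_univ _, Finset.mem_powersetCard.2 ⟨Finset.subset_univ _, ?_⟩⟩
        rw [Finset.card_image_of_injective _ σ.injective]
        exact hdeg c hc
      · refine Finset.card_image_of_injective _ ?_
        intro a b hab
        exact σ.injective (congrArg Prod.fst hab)
    · rw [Finset.image_biUnion]
      unfold starUnion relabel
      rw [Finset.biUnion_image]
      refine Finset.biUnion_congr rfl fun c _ => ?_
      exact (relabel_star σ c (nbr H c)).symm
  calc count (allEdges n) (starUnion H S) ≤ _ := Finset.card_le_card hsub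
    _ ≤ (powersetCard S.card U).card := Finset.card_image_le
    _ = (n * n.choose m).choose S.card := by rw [Finset.card_powersetCard, hUcard]

/-- a class of vertices of degree `m` is at most `1 + m` times an independent subset -/
theorem exists_indep {H : Finset (Sym2 (Fin n))} {C : Finset (Fin n)} {m : ℕ}
    (hdeg : ∀ c ∈ C, deg H c = m) :
    ∃ S ⊆ C, Indep H S ∧ C.card ≤ (1 + m) * S.card := by
  classical
  have hne : (C.powerset.filter (fun S => Indep H S)).Nonempty :=
    ⟨∅, Finset.mem_filter.2 ⟨Finset.empty_mem_powerset _, fun u hu => absurd hu (by simp)⟩⟩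
  obtain ⟨S, hS, hmax⟩ := Finset.exists_max_image _ Finset.card hne
  obtain ⟨hSC, hSind⟩ := Finset.mem_filter.1 hS
  have hSC' : S ⊆ C := Finset.mem_powerset.1 hSC
  refine ⟨S, hSC', hSind, ?_⟩
  have hcover : C ⊆ S ∪ S.biUnion (fun w => nbr H w) := by
    intro u hu
    by_cases huS : u ∈ S
    · exact Finset.mem_union_left _ huS
    · refine Finset.mem_union_right _ ?_
      by_contra hcon
      have hno : ∀ w ∈ S, s(w, u) ∉ H := by
        intro w hw h
        exact hcon (Finset.mem_biUnion.2 ⟨w, hw, mem_nbr.2 h⟩)
      have hind' : Indep H (insert u S) := by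
        intro a ha b hb hab
        rcases Finset.mem_insert.1 ha with rfl | ha'
        · rcases Finset.mem_insert.1 hb with rfl | hb'
          · exact absurd rfl hab
          · rw [Sym2.eq_swap]
            exact hno b hb'
        · rcases Finset.mem_insert.1 hb with rfl | hb'
          · exact hno a ha'
          · exact hSind a ha' b hb' hab
      have hmem : insert u S ∈ C.powerset.filter (fun S => Indep H S) :=
        Finset.mem_filter.2 ⟨Finset.mem_powerset.2 (Finset.insert_subset hu hSC'), hind'⟩
      have := hmax _ hmem
      rw [Finset.card_insert_of_notMem huS] at this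
      omega
  calc C.card ≤ (S ∪ S.biUnion (fun w => nbr H w)).card := Finset.card_le_card hcover
    _ ≤ S.card + (S.biUnion (fun w => nbr H w)).card := Finset.card_union_le _ _
    _ ≤ S.card + ∑ w ∈ S, (nbr H w).card := by
        have := Finset.card_biUnion_le (s := S) (t := fun w => nbr H w)
        omega
    _ = S.card + S.card * m := by
        have h1 : ∑ w ∈ S, (nbr H w).card = ∑ _w ∈ S, m :=
          Finset.sum_congr rfl (fun w hw => hdeg w (hSC' hw))
        rw [h1, Finset.sum_const, smul_eq_mul]
    _ = (1 + m) * S.card := by ring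

end Vale.Agent.P064
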